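import Vale.Agent.P210.R2.H53.Loc

set_option linter.all false

open scoped ContDiff Topology
open Set Metric Filter

set_option maxSynthPendingDepth 3

noncomputable section

namespace Vale.Agent.P210.R2.H196

open Vale.Agent.P210.R2.H53 Vale.Agent.P234

variable {E : Type*} [NormedAddCommGroup E] [NormedSpace ℝ E] [FiniteDimensional ℝ E]

/-- Local data of a metric `G` near `z₀`: exponential map `X`, logarithm `L`. -/
structure LD (G : E → E →L[ℝ] E →L[ℝ] ℝ) (U : Set E) (z₀ : E) (S : E → E →L[ℝ] E →L[ℝ] E)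
    (X L : E × E → E) (δ ρ : ℝ) : Prop where
  δpos : 0 < δ
  ρpos : 0 < ρ
  smoothS : ContDiff ℝ ∞ S
  geo : ∀ z ∈ ball z₀ ρ, GeoBall G S z (fun v => X (z, v)) δ
  memU : ∀ z ∈ ball z₀ ρ, ∀ v ∈ ball (0 : E) δ, X (z, v) ∈ U
  logX : ∀ z ∈ ball z₀ ρ, ∀ v ∈ ball (0 : E) δ, L (z, X (z, v)) = v
  smoothL : ∀ z ∈ ball z₀ ρ, ∀ y ∈ ball z₀ ρ, ContDiffAt ℝ ∞ L (z, y)
  memL : ∀ z ∈ ball z₀ ρ, ∀ y ∈ ball z₀ ρ, L (z, y) ∈ ball (0 : E) δ
  expL : ∀ z ∈ ball z₀ ρ, ∀ y ∈ ball z₀ ρ, X (z, L (z, y)) = y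

theorem exists_LD {G : E → E →L[ℝ] E →L[ℝ] ℝ} {U : Set E} (h : LocalRiem G U) {z₀ : E}
    (hz₀ : z₀ ∈ U) : ∃ S X L δ ρ, LD G U z₀ S X L δ ρ := by
  have hU := h.isOpen
  have hG := h.smooth
  have hsym := h.symm
  have hpos := h.pos
  have hcompl : CompleteSpace E := FiniteDimensional.complete ℝ E
  obtain ⟨S, hS, hspray⟩ := exists_spray hU hG hpos hz₀
  obtain ⟨X, hXc, hX0, hXd, hXode⟩ := exists_geodesic_map hS z₀
  have hX00 : X (z₀, 0) = z₀ := hX0.self_of_nhds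
  have hXc0 : ContDiffAt ℝ ∞ X (z₀, 0) := hXc.self_of_nhds
  have hXt : Tendsto X (𝓝 ((z₀, 0) : E × E)) (𝓝 z₀) := by
    have h1 := hXc0.continuousAt.tendsto
    rwa [hX00] at h1
  have hXU : ∀ᶠ z in 𝓝 ((z₀, 0) : E × E), X z ∈ U := hXt.eventually (hU.mem_nhds hz₀)
  have hXs := hXt.eventually hspray
  have hbij : Function.Bijective (fun v : E => fderiv ℝ X (z₀, 0) (0, v)) := by
    have h1 : HasFDerivAt (fun v : E => X (z₀, v)) (ContinuousLinearMap.id ℝ E) 0 :=
      hXd.self_of_nhds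
    have h2 : HasFDerivAt X (fderiv ℝ X (z₀, 0)) (z₀, 0) :=
      (hXc0.differentiableAt (by simp)).hasFDerivAt
    have h3 : HasFDerivAt (fun v : E => ((z₀, v) : E × E)) (ContinuousLinearMap.inr ℝ E E) 0 :=
      hasFDerivAt_prodMk_right z₀ 0
    have h4 : HasFDerivAt (fun v : E => X (z₀, v))
        ((fderiv ℝ X (z₀, 0)).comp (ContinuousLinearMap.inr ℝ E E)) 0 := h2.comp 0 h3
    have h5 := h4.unique h1
    have h6 : (fun v : E => fderiv ℝ X (z₀, 0) (0, v)) = id := by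
      funext v
      have := congrArg (fun T : E →L[ℝ] E => T v) h5
      simpa only [id_eq, ContinuousLinearMap.comp_apply, ContinuousLinearMap.inr_apply,
        ContinuousLinearMap.id_apply] using this
    rw [h6]
    exact Function.bijective_id
  obtain ⟨L, hLc, hL0, hXL, hLX⟩ := param_inverse (n := ∞) hXc (by simp) hbij
  simp only [hX00] at hLc hL0 hXL
  have hLt : Tendsto L (𝓝 ((z₀, z₀) : E × E)) (𝓝 0) := by
    have h1 := hLc.self_of_nhds.continuousAt.tendsto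
    rwa [hL0] at h1
  obtain ⟨δ₁, hδ₁, h₁⟩ := Metric.eventually_nhds_iff_ball.1
    (hXc.and (hXU.and (hXs.and (hXode.and hLX))))
  obtain ⟨δ₂, hδ₂, h₂⟩ := Metric.eventually_nhds_iff_ball.1 (hX0.and hXd)
  obtain ⟨δ₃, hδ₃, h₃⟩ := Metric.eventually_nhds_iff_ball.1
    (hLc.and ((hLt.eventually (ball_mem_nhds _ hδ₁)).and hXL))
  have hmem : ∀ z ∈ ball z₀ (min δ₁ (min δ₂ δ₃)), ∀ v ∈ ball (0 : E) δ₁,
      ((z, v) : E × E) ∈ ball ((z₀, 0) : E × E) δ₁ := by
    intro z hz v hv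
    have hz1 : z ∈ ball z₀ δ₁ := ball_subset_ball (min_le_left _ _) hz
    rw [mem_ball, Prod.dist_eq]
    exact max_lt hz1 hv
  have hmem3 : ∀ z ∈ ball z₀ (min δ₁ (min δ₂ δ₃)), ∀ y ∈ ball z₀ (min δ₁ (min δ₂ δ₃)),
      ((z, y) : E × E) ∈ ball ((z₀, z₀) : E × E) δ₃ := by
    intro z hz y hy
    have hz1 : z ∈ ball z₀ δ₃ :=
      ball_subset_ball ((min_le_right _ _).trans (min_le_right _ _)) hz
    have hy1 : y ∈ ball z₀ δ₃ :=
      ball_subset_ball ((min_le_right _ _).trans (min_le_right _ _)) hy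
    rw [mem_ball, Prod.dist_eq]
    exact max_lt hz1 hy1
  refine ⟨S, X, L, δ₁, min δ₁ (min δ₂ δ₃), hδ₁, lt_min hδ₁ (lt_min hδ₂ hδ₃), hS, ?_, ?_, ?_, ?_,
    ?_, ?_⟩
  · intro z hz
    have hz2 : z ∈ ball z₀ δ₂ := ball_subset_ball ((min_le_right _ _).trans (min_le_left _ _)) hz
    refine ⟨hδ₁, ?_, (h₂ z hz2).1, (h₂ z hz2).2, ?_, ?_, ?_, ?_, ?_⟩
    · intro v hv
      exact (h₁ _ (hmem z hz v hv)).1.comp v (contDiffAt_const.prodMk contDiffAt_id)
    · intro v hv
      exact hG.contDiffAt (hU.mem_nhds (h₁ _ (hmem z hz v hv)).2.1)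
    · intro v hv
      exact hsym _ (h₁ _ (hmem z hz v hv)).2.1
    · intro v hv
      exact hpos _ (h₁ _ (hmem z hz v hv)).2.1
    · intro v hv
      exact (h₁ _ (hmem z hz v hv)).2.2.1
    · intro v hv
      exact (h₁ _ (hmem z hz v hv)).2.2.2.1
  · intro z hz v hv
    exact (h₁ _ (hmem z hz v hv)).2.1
  · intro z hz v hv
    exact (h₁ _ (hmem z hz v hv)).2.2.2.2
  · intro z hz y hy
    exact (h₃ _ (hmem3 z hz y hy)).1
  · intro z hz y hy
    exact (h₃ _ (hmem3 z hz y hy)).2.1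
  · intro z hz y hy
    exact (h₃ _ (hmem3 z hz y hy)).2.2

namespace LD

variable {G : E → E →L[ℝ] E →L[ℝ] ℝ} {U : Set E} {z₀ : E} {S : E → E →L[ℝ] E →L[ℝ] E}
    {X L : E × E → E} {δ ρ : ℝ}

/-- position of the ray -/
def pos (X : E × E → E) (z v : E) (t : ℝ) : E := X (z, t • v)

/-- velocity of the ray -/
def vel (X : E × E → E) (z v : E) (t : ℝ) : E := fderiv ℝ (fun w => X (z, w)) (t • v) v

theorem S_eq (hR : LocalRiem G U) (h : LD G U z₀ S X L δ ρ) {z : E} (hz : z ∈ ball z₀ ρ) {v : E}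
    (hv : v ∈ ball (0 : E) δ) (a : E) : S (X (z, v)) a a = -(chris G (X (z, v)) a a) := by
  have hU := h.memU z hz v hv
  have h1 := (h.geo z hz).spray v hv a
  have h2 : -(S (X (z, v)) a a) = chris G (X (z, v)) a a := by
    refine eq_chris_of_pos (hR.pos _ hU) a a _ (fun w => ?_)
    rw [map_neg, neg_apply, h1 w, koszul]
    ring
  rw [← h2, neg_neg]

theorem second (hR : LocalRiem G U) (h : LD G U z₀ S X L δ ρ) {z : E} (hz : z ∈ ball z₀ ρ)
    (v : E) {t : ℝ} (ht : t • v ∈ ball (0 : E) δ) :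
    fderiv ℝ (fderiv ℝ (fun w => X (z, w))) (t • v) v v =
      S (X (z, t • v)) (vel X z v t) (vel X z v t) := by
  set Y : E → E := fun w => X (z, w) with hY
  have hg := h.geo z hz
  -- away from zero
  have key : ∀ s : ℝ, s ≠ 0 → s • v ∈ ball (0 : E) δ →
      fderiv ℝ (fderiv ℝ Y) (s • v) v v =
        S (Y (s • v)) (fderiv ℝ Y (s • v) v) (fderiv ℝ Y (s • v) v) := by
    intro s hs hsv
    rw [mem_ball_zero_iff] at hsv
    -- write s • v = r • w with r in (0,1)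
    obtain ⟨r, hr0, hr1, hr2⟩ : ∃ r : ℝ, 0 < r ∧ r < 1 ∧ ‖s • v‖ < r * δ := by
      refine ⟨(‖s • v‖ / δ + 1) / 2, ?_, ?_, ?_⟩
      · have : 0 ≤ ‖s • v‖ / δ := div_nonneg (norm_nonneg _) h.δpos.le
        linarith only [this]
      · have : ‖s • v‖ / δ < 1 := (div_lt_one h.δpos).2 hsv
        linarith only [this]
      · have h1 : ‖s • v‖ / δ < (‖s • v‖ / δ + 1) / 2 := by
          have : ‖s • v‖ / δ < 1 := (div_lt_one h.δpos).2 hsv
          linarith only [this]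
        have h2 := mul_lt_mul_of_pos_right h1 h.δpos
        rwa [div_mul_cancel₀ _ h.δpos.ne'] at h2
    have hw : (r⁻¹ * s) • v ∈ ball (0 : E) δ := by
      rw [mem_ball_zero_iff, mul_smul, norm_smul, norm_inv, Real.norm_of_nonneg hr0.le]
      rw [inv_mul_lt_iff₀ hr0]
      exact hr2
    have h1 := hg.exGauss_ode hw ⟨hr0, hr1⟩
    have h2 : r • (r⁻¹ * s) • v = s • v := by
      rw [smul_smul]
      congr 1
      field_simp
    rw [h2] at h1
    simp only [map_smul, smul_apply] at h1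
    have hne : r⁻¹ * s ≠ 0 := mul_ne_zero (inv_ne_zero hr0.ne') hs
    have h3 := smul_right_injective E hne h1
    exact smul_right_injective E hne h3
  rcases eq_or_ne t 0 with rfl | ht0
  · -- the limit
    have hfun : ∀ᶠ s in 𝓝 (0 : ℝ), s • v ∈ ball (0 : E) δ := exGauss_eventually ht
    have hsm : ContinuousAt (fun s : ℝ => s • v) (0 : ℝ) :=
      (continuous_id.smul continuous_const).continuousAt
    have c1 : ContDiffAt ℝ ∞ (fderiv ℝ Y) ((0 : ℝ) • v) :=
      (hg.smoothY _ ht).fderiv_right (by simp)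
    have c2 : ContinuousAt (fderiv ℝ (fderiv ℝ Y)) ((0 : ℝ) • v) :=
      (c1.fderiv_right (m := ∞) (by simp)).continuousAt
    have c3 : ContinuousAt Y ((0 : ℝ) • v) := (hg.smoothY _ ht).continuousAt
    have c4 : ContinuousAt S (Y ((0 : ℝ) • v)) := h.smoothS.continuous.continuousAt
    have k1 : ContinuousAt (fun s : ℝ => fderiv ℝ (fderiv ℝ Y) (s • v)) 0 :=
      ContinuousAt.comp (g := fderiv ℝ (fderiv ℝ Y)) (f := fun s : ℝ => s • v) c2 hsm
    have k2 : ContinuousAt (fun s : ℝ => fderiv ℝ Y (s • v)) 0 :=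
      ContinuousAt.comp (g := fderiv ℝ Y) (f := fun s : ℝ => s • v) c1.continuousAt hsm
    have k3 : ContinuousAt (fun s : ℝ => Y (s • v)) 0 :=
      ContinuousAt.comp (g := Y) (f := fun s : ℝ => s • v) c3 hsm
    have k4 : ContinuousAt (fun s : ℝ => S (Y (s • v))) 0 :=
      ContinuousAt.comp (g := S) (f := fun s : ℝ => Y (s • v)) c4 k3
    have t1 := ((k1.clm_apply (continuousAt_const (y := v))).clm_apply
      (continuousAt_const (y := v))).tendsto
    have t2 := k2.clm_apply (continuousAt_const (y := v))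
    have t3 := ((k4.clm_apply t2).clm_apply t2).tendsto
    refine tendsto_nhds_unique_of_eventuallyEq (l := 𝓝[≠] (0 : ℝ)) (t1.mono_left nhdsWithin_le_nhds)
      (t3.mono_left nhdsWithin_le_nhds) ?_
    filter_upwards [self_mem_nhdsWithin, hfun.filter_mono nhdsWithin_le_nhds] with s hs1 hs2
    exact key s hs1 hs2
  · exact key t ht0 ht

/-- rays are geodesics -/
theorem ray (hR : LocalRiem G U) (h : LD G U z₀ S X L δ ρ) {z : E} (hz : z ∈ ball z₀ ρ)
    (v : E) {t : ℝ} (ht : t • v ∈ ball (0 : E) δ) :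
    HasDerivAt (pos X z v) (vel X z v t) t ∧
    HasDerivAt (vel X z v) (S (pos X z v t) (vel X z v t) (vel X z v t)) t ∧
    S (pos X z v t) (vel X z v t) (vel X z v t) =
      -(chris G (pos X z v t) (vel X z v t) (vel X z v t)) ∧
    pos X z v t ∈ U ∧ G (pos X z v t) (vel X z v t) (vel X z v t) = G z v v := by
  have hg := h.geo z hz
  refine ⟨hg.exGauss_hasDerivAt ht, ?_, ?_, h.memU z hz _ ht, ?_⟩
  · have h1 := hg.exGauss_hasDerivAt2 ht v
    rw [h.second hR hz v ht] at h1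
    exact h1
  · exact h.S_eq hR hz ht _
  · -- speed
    rcases eq_or_ne t 0 with rfl | ht0
    · simp only [pos, vel, zero_smul]
      have h0 : X (z, 0) = z := hg.zero
      rw [h0, hg.dzero.fderiv]
      simp
    · have h1 := hg.exGauss_speed ht (right_mem_Icc.2 zero_le_one)
      simp only [one_smul, map_smul, smul_apply, smul_eq_mul] at h1
      have h2 : t * t ≠ 0 := mul_ne_zero ht0 ht0
      have h3 : (t * t) * G (pos X z v t) (vel X z v t) (vel X z v t) = (t * t) * G z v v := by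
        simp only [pos, vel]
        linarith only [h1]
      exact mul_left_cancel₀ h2 h3

/-- the gradient of the squared distance function -/
theorem grad (hR : LocalRiem G U) (h : LD G U z₀ S X L δ ρ) {z y : E} (hz : z ∈ ball z₀ ρ)
    (hy : y ∈ ball z₀ ρ) :
    HasFDerivAt (fun c => G z (L (z, c)) (L (z, c))) ((2 : ℝ) • G y (vel X z (L (z, y)) 1)) y := by
  have hg := h.geo z hz
  have hLs : ContDiffAt ℝ ∞ (fun c => L (z, c)) y :=
    ContDiffAt.comp y (g := L) (f := fun c : E => ((z, c) : E × E)) (h.smoothL z hz y hy)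
      (contDiffAt_const.prodMk contDiffAt_id)
  have hLd : DifferentiableAt ℝ (fun c => L (z, c)) y := hLs.differentiableAt (by simp)
  have hLm := h.memL z hz y hy
  have hY : ∀ᶠ c' in 𝓝 y, X (z, L (z, c')) = c' := by
    filter_upwards [isOpen_ball.mem_nhds hy] with c' hc' using h.expL z hz c' hc'
  have hYc : X (z, L (z, y)) = y := hY.self_of_nhds
  have h1 : HasFDerivAt (fun c' => X (z, L (z, c')))
      ((fderiv ℝ (fun w => X (z, w)) (L (z, y))).comp (fderiv ℝ (fun c => L (z, c)) y)) y :=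
    HasFDerivAt.comp (g := fun w => X (z, w)) y (hg.exGauss_hasFDerivAt hLm) hLd.hasFDerivAt
  have h2 : HasFDerivAt (fun c' => X (z, L (z, c'))) (ContinuousLinearMap.id ℝ E) y :=
    (hasFDerivAt_id y).congr_of_eventuallyEq hY
  have h5 : HasFDerivAt (fun c' => G z (L (z, c'))) ((G z).comp (fderiv ℝ (fun c => L (z, c)) y)) y :=
    (G z).hasFDerivAt.comp y hLd.hasFDerivAt
  have h6 := h5.clm_apply hLd.hasFDerivAt
  refine h6.congr_fderiv ?_
  ext ζ
  have h3 : fderiv ℝ (fun w => X (z, w)) (L (z, y)) (fderiv ℝ (fun c => L (z, c)) y ζ) = ζ := by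
    have := congrArg (fun A : E →L[ℝ] E => A ζ) (h1.unique h2)
    simpa only [ContinuousLinearMap.comp_apply, ContinuousLinearMap.id_apply] using this
  have hs2 := hg.symm 0 (mem_ball_self h.δpos) (fderiv ℝ (fun c => L (z, c)) y ζ) (L (z, y))
  have hz0 : X (z, 0) = z := hg.zero
  simp only [hz0] at hs2
  have h7 := hg.exGauss_gauss hLm (fderiv ℝ (fun c => L (z, c)) y ζ)
  simp only [h3, hYc] at h7
  simp only [add_apply, ContinuousLinearMap.comp_apply, ContinuousLinearMap.flip_apply, hs2,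
    smul_apply, smul_eq_mul, vel, one_smul]
  rw [h7]
  ring

/-- Eikonal inequality -/
theorem eik (hR : LocalRiem G U) (h : LD G U z₀ S X L δ ρ) {z y : E} (hz : z ∈ ball z₀ ρ)
    (hy : y ∈ ball z₀ ρ) (ζ : E) :
    ((2 : ℝ) • G y (vel X z (L (z, y)) 1)) ζ ^ 2 ≤ 4 * G z (L (z, y)) (L (z, y)) * G y ζ ζ := by
  have hLm := h.memL z hz y hy
  have hYc : X (z, L (z, y)) = y := h.expL z hz y hy
  have h1 := h.ray hR hz (L (z, y)) (t := 1) (by rw [one_smul]; exact hLm)
  simp only [pos, one_smul, hYc] at h1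
  obtain ⟨-, -, -, hyU, hsp⟩ := h1
  have h9 := exGauss_cs (hR.symm y hyU) (hR.pos y hyU) (vel X z (L (z, y)) 1) ζ
  rw [hsp] at h9
  rw [smul_apply, smul_eq_mul]
  linarith only [h9]

end LD

end Vale.Agent.P210.R2.H196
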