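import Vale.Agent.P210.R2.H53.SpecR
import Vale.Agent.P210.R2.H196.GeoB

set_option linter.all false

open scoped Manifold ContDiff Topology Bundle
open Set Metric Filter Bundle IsManifold MeasureTheory Manifold Asymptotics

set_option maxSynthPendingDepth 3

noncomputable section

namespace Vale.Agent.P210.R2.H196

open Vale.Agent.P210.R2.H53 Vale.Agent.P234

section Lower

variable {E : Type*} [NormedAddCommGroup E] [NormedSpace ℝ E] [FiniteDimensional ℝ E]

theorem exists_lower' {G : E → E →L[ℝ] E →L[ℝ] ℝ} {z₀ : E} (hc : ContinuousAt G z₀)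
    (hpos : ∀ v, v ≠ 0 → 0 < G z₀ v v) :
    ∃ K > 0, ∀ᶠ z in 𝓝 z₀, ∀ v : E, ‖v‖ ≤ K * √(G z v v) := by
  have : ProperSpace E := FiniteDimensional.proper ℝ E
  obtain ⟨m, hm, hm'⟩ : ∃ m > 0, ∀ v : E, ‖v‖ = 1 → m ≤ G z₀ v v := by
    by_cases hs : (sphere (0 : E) 1).Nonempty
    · obtain ⟨v, hv, hmin⟩ := (isCompact_sphere (0 : E) 1).exists_isMinOn
        (f := fun v => G z₀ v v) hs
        (((G z₀).continuous.clm_apply continuous_id).continuousOn)
      rw [mem_sphere_zero_iff_norm] at hv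
      refine ⟨G z₀ v v, hpos v (by rw [← norm_pos_iff, hv]; exact one_pos), fun w hw => ?_⟩
      exact hmin (by rw [mem_sphere_zero_iff_norm]; exact hw)
    · refine ⟨1, one_pos, fun v hv => absurd ⟨v, ?_⟩ hs⟩
      rw [mem_sphere_zero_iff_norm]; exact hv
  have hall : ∀ v : E, m * ‖v‖ ^ 2 ≤ G z₀ v v := by
    intro v
    by_cases hv : v = 0
    · simp [hv]
    have hn : 0 < ‖v‖ := norm_pos_iff.2 hv
    have h1 := hm' (‖v‖⁻¹ • v) (by rw [norm_smul, norm_inv, norm_norm, inv_mul_cancel₀ hn.ne'])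
    simp only [map_smul, smul_apply, smul_eq_mul] at h1
    have h2 : ‖v‖⁻¹ * (‖v‖⁻¹ * G z₀ v v) = G z₀ v v / ‖v‖ ^ 2 := by field_simp
    rw [h2, le_div_iff₀ (by positivity)] at h1
    exact h1
  refine ⟨√(2 / m), by positivity, ?_⟩
  have h1 : ∀ᶠ z in 𝓝 z₀, ‖G z - G z₀‖ < m / 2 := by
    have h2 : Tendsto (fun z => ‖G z - G z₀‖) (𝓝 z₀) (𝓝 ‖G z₀ - G z₀‖) :=
      (hc.tendsto.sub tendsto_const_nhds).norm
    rw [sub_self, norm_zero] at h2
    exact h2.eventually (gt_mem_nhds (by positivity))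
  filter_upwards [h1] with z hz v
  have h2 : |(G z - G z₀) v v| ≤ m / 2 * ‖v‖ ^ 2 := by
    have h3 := (G z - G z₀).le_opNorm₂ v v
    rw [Real.norm_eq_abs] at h3
    refine h3.trans ?_
    rw [mul_assoc, ← sq]
    gcongr
  have h4 : m / 2 * ‖v‖ ^ 2 ≤ G z v v := by
    have h5 := (abs_le.1 h2).1
    have h6 := hall v
    simp only [sub_apply] at h5
    linarith only [h5, h6]
  rw [← Real.sqrt_mul (by positivity)]
  refine Real.le_sqrt_of_sq_le ?_
  have h5 : 2 / m * (m / 2 * ‖v‖ ^ 2) ≤ 2 / m * G z v v := by gcongr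
  have h6 : 2 / m * (m / 2 * ‖v‖ ^ 2) = ‖v‖ ^ 2 := by field_simp
  linarith only [h5, h6]

end Lower

section

variable {E : Type} [NormedAddCommGroup E] [NormedSpace ℝ E] [FiniteDimensional ℝ E]
    {M : Type} [MetricSpace M] [ChartedSpace E M]
    [RiemannianBundle (fun x : M => TangentSpace 𝓘(ℝ, E) x)]
    [IsManifold 𝓘(ℝ, E) ∞ M]
    [IsContMDiffRiemannianBundle 𝓘(ℝ, E) ∞ E (fun x : M => TangentSpace 𝓘(ℝ, E) x)]

theorem localRiem_chartG {e : OpenPartialHomeomorph M E} (he : e ∈ maximalAtlas 𝓘(ℝ, E) ∞ M) :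
    LocalRiem (chartG e) e.target :=
  ⟨e.open_target, contDiffOn_chartG he, fun z _ v w => chartG_symm e z v w,
    fun z hz v hv => chartG_pos he hz v hv⟩

variable [IsRiemannianManifold 𝓘(ℝ, E) M]

/-- upper bound of the distance -/
theorem LD.dist_le {e : OpenPartialHomeomorph M E} (he : e ∈ maximalAtlas 𝓘(ℝ, E) ∞ M)
    {z₀ : E} {S : E → E →L[ℝ] E →L[ℝ] E} {X L : E × E → E} {δ ρ : ℝ}
    (h : LD (chartG e) e.target z₀ S X L δ ρ) {z y : E} (hz : z ∈ ball z₀ ρ)
    (hy : y ∈ ball z₀ ρ) :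
    dist (e.symm z) (e.symm y) ≤ √(chartG e z (L (z, y)) (L (z, y))) := by
  have hR := localRiem_chartG he
  have hLm := h.memL z hz y hy
  have hball : ∀ t ∈ Icc (0 : ℝ) 1, t • L (z, y) ∈ ball (0 : E) δ := fun t ht =>
    exGauss_mem hLm ht
  have h1 := dist_le_chart he (c := LD.pos X z (L (z, y))) (c' := LD.vel X z (L (z, y)))
    zero_le_one
    (fun t ht => (h.ray hR hz _ (hball t ht)).1.hasDerivWithinAt)
    (fun t ht => (h.ray hR hz _ (hball t ht)).2.1.continuousAt.continuousWithinAt)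
    (fun t ht => (h.ray hR hz _ (hball t ht)).2.2.2.1)
  have h2 : ∫ t in (0:ℝ)..1, √(chartG e (LD.pos X z (L (z, y)) t) (LD.vel X z (L (z, y)) t)
      (LD.vel X z (L (z, y)) t)) = √(chartG e z (L (z, y)) (L (z, y))) := by
    rw [intervalIntegral.integral_congr (g := fun _ => √(chartG e z (L (z, y)) (L (z, y))))]
    · simp
    · intro t ht
      rw [uIcc_of_le zero_le_one] at ht
      simp only
      rw [(h.ray hR hz _ (hball t ht)).2.2.2.2]
  rw [h2] at h1
  have h3 : LD.pos X z (L (z, y)) 0 = z := by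
    simp only [LD.pos, zero_smul]
    exact (h.geo z hz).zero
  have h4 : LD.pos X z (L (z, y)) 1 = y := by
    simp only [LD.pos, one_smul]
    exact h.expL z hz y hy
  rwa [h3, h4] at h1

theorem LD.log_self {G : E → E →L[ℝ] E →L[ℝ] ℝ} {U : Set E}
    {z₀ : E} {S : E → E →L[ℝ] E →L[ℝ] E} {X L : E × E → E} {δ ρ : ℝ}
    (h : LD G U z₀ S X L δ ρ) {z : E} (hz : z ∈ ball z₀ ρ) : L (z, z) = 0 := by
  have h1 := h.logX z hz 0 (mem_ball_self h.δpos)
  have h2 : X (z, 0) = z := (h.geo z hz).zero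
  rwa [h2] at h1

/-- length of curves bounded below -/
theorem LD.le_length {G : E → E →L[ℝ] E →L[ℝ] ℝ} {U : Set E} (hR : LocalRiem G U)
    {z₀ : E} {S : E → E →L[ℝ] E →L[ℝ] E} {X L : E × E → E} {δ ρ : ℝ}
    (h : LD G U z₀ S X L δ ρ) {z : E} (hz : z ∈ ball z₀ ρ) {c c' : ℝ → E}
    (hc : ∀ t ∈ Icc (0:ℝ) 1, HasDerivWithinAt c (c' t) (Icc 0 1) t)
    (hc' : ContinuousOn c' (Icc 0 1)) (hball : ∀ t ∈ Icc (0:ℝ) 1, c t ∈ ball z₀ ρ)
    (hcU : ∀ t ∈ Icc (0:ℝ) 1, c t ∈ U)
    (h0 : c 0 = z) : √(G z (L (z, c 1)) (L (z, c 1))) ≤ ∫ t in (0:ℝ)..1, √(G (c t) (c' t) (c' t)) := by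
  refine le_of_forall_pos_le_add fun η hη => ?_
  set N : E → ℝ := fun y => G z (L (z, y)) (L (z, y)) with hN
  have hzU : z ∈ U := by rw [← h0]; exact hcU 0 (left_mem_Icc.2 zero_le_one)
  have hN0 : ∀ y, 0 ≤ N y := by
    intro y
    by_cases hy : L (z, y) = 0
    · simp [hN, hy]
    · exact (hR.pos z hzU _ hy).le
  set g : ℝ → ℝ := fun t => √(N (c t) + η ^ 2) with hg
  set g' : ℝ → ℝ := fun t => (((2 : ℝ) • G (c t) (LD.vel X z (L (z, c t)) 1)) (c' t)) /
    (2 * √(N (c t) + η ^ 2)) with hg'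
  have hpos : ∀ t, 0 < N (c t) + η ^ 2 := fun t => by have := hN0 (c t); positivity
  have hderiv : ∀ t ∈ Icc (0:ℝ) 1, HasDerivWithinAt g (g' t) (Icc 0 1) t := by
    intro t ht
    have h1 := (h.grad hR hz (hball t ht)).comp_hasDerivWithinAt t (hc t ht)
    have h2 := (h1.add_const (η ^ 2)).sqrt (hpos t).ne'
    exact h2
  have hGc : ContinuousOn (fun t => √(G (c t) (c' t) (c' t))) (Icc 0 1) := by
    have hcc : ContinuousOn c (Icc 0 1) := fun t ht => (hc t ht).continuousWithinAt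
    have hG : ContinuousOn (fun t => G (c t)) (Icc 0 1) :=
      hR.smooth.continuousOn.comp hcc hcU
    exact ((hG.clm_apply hc').clm_apply hc').sqrt
  have h1 := intervalIntegral.sub_le_integral_of_hasDeriv_right_of_le (g := g) (g' := g')
    (φ := fun t => √(G (c t) (c' t) (c' t))) zero_le_one
    (fun t ht => (hderiv t ht).continuousWithinAt)
    (fun t ht => (hderiv t ⟨ht.1.le, ht.2.le⟩).mono_of_mem_nhdsWithin
      (Icc_mem_nhdsGT_of_mem ⟨ht.1.le, ht.2⟩))
    hGc.integrableOn_Icc ?_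
  · have h2 : g 0 = η := by
      simp only [hg, hN, h0, h.log_self hz, map_zero, zero_add]
      exact Real.sqrt_sq hη.le
    have h3 : √(G z (L (z, c 1)) (L (z, c 1))) ≤ g 1 := by
      apply Real.sqrt_le_sqrt
      have : 0 ≤ η ^ 2 := by positivity
      simp only [hN]
      linarith only [this]
    linarith only [h1, h2, h3]
  · intro t ht
    have ht' : t ∈ Icc (0:ℝ) 1 := ⟨ht.1.le, ht.2.le⟩
    have h2 := h.eik hR hz (hball t ht') (c' t)
    have h3 : 0 ≤ G (c t) (c' t) (c' t) := by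
      by_cases hy : c' t = 0
      · simp [hy]
      · exact (hR.pos _ (hcU t ht') _ hy).le
    have hs : 0 < √(N (c t) + η ^ 2) := Real.sqrt_pos.2 (hpos t)
    rw [div_le_iff₀ (by positivity)]
    refine (le_abs_self _).trans (abs_le_of_sq_le_sq ?_ (by positivity))
    rw [mul_pow, mul_pow, Real.sq_sqrt h3, Real.sq_sqrt (hpos t).le]
    have h4 : 0 ≤ G (c t) (c' t) (c' t) * η ^ 2 := by positivity
    have h5 : N (c t) = G z (L (z, c t)) (L (z, c t)) := rfl
    rw [h5] at *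
    linarith only [h2, h4]

/-- chart data at a point -/
structure CD (e : OpenPartialHomeomorph M E) (x₀ : M) (S : E → E →L[ℝ] E →L[ℝ] E)
    (X L : E × E → E) (δ ρ K r : ℝ) : Prop where
  ld : LD (chartG e) e.target (e x₀) S X L δ ρ
  Kpos : 0 < K
  rpos : 0 < r
  src : ball x₀ r ⊆ e.source
  mem : ∀ p ∈ ball x₀ r, e p ∈ ball (e x₀) ρ
  low : ∀ p ∈ ball x₀ r, ∀ v : E, ‖v‖ ≤ K * √(chartG e (e p) v v)
  norm_log : ∀ p ∈ ball x₀ r, ∀ q ∈ ball x₀ r,
    √(chartG e (e p) (L (e p, e q)) (L (e p, e q))) = dist p q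
  small : K * (8 * r) < δ

theorem exists_CD {e : OpenPartialHomeomorph M E} (he : e ∈ maximalAtlas 𝓘(ℝ, E) ∞ M) {x₀ : M}
    (hx₀ : x₀ ∈ e.source) : ∃ S X L δ ρ K r, CD e x₀ S X L δ ρ K r := by
  have hR := localRiem_chartG he
  have hz₀ : e x₀ ∈ e.target := e.map_source hx₀
  obtain ⟨S, X, L, δ, ρ, h⟩ := exists_LD hR hz₀
  obtain ⟨K, hK, hlow⟩ := exists_lower' (hR.differentiableAt hz₀).continuousAt (hR.pos _ hz₀)
  have hcont : Tendsto e (𝓝 x₀) (𝓝 (e x₀)) := (e.continuousAt hx₀).tendsto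
  have hev : ∀ᶠ p in 𝓝 x₀, p ∈ e.source ∧ e p ∈ ball (e x₀) ρ ∧
      ∀ v : E, ‖v‖ ≤ K * √(chartG e (e p) v v) := by
    filter_upwards [e.open_source.mem_nhds hx₀, hcont.eventually (ball_mem_nhds _ h.ρpos),
      hcont.eventually hlow] with p h1 h2 h3 using ⟨h1, h2, h3⟩
  obtain ⟨R, hRpos, hRb⟩ := Metric.eventually_nhds_iff_ball.1 hev
  set r : ℝ := min (R / 8) (δ / (16 * K)) with hr
  have hδ := h.δpos
  have hrpos : 0 < r := lt_min (by positivity) (by positivity)
  have hrR : r ≤ R / 8 := min_le_left _ _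
  have hrδ : r ≤ δ / (16 * K) := min_le_right _ _
  have hsub : ball x₀ r ⊆ ball x₀ R := ball_subset_ball (by linarith only [hrR, hRpos])
  refine ⟨S, X, L, δ, ρ, K, r, h, hK, hrpos, fun p hp => (hRb p (hsub hp)).1,
    fun p hp => (hRb p (hsub hp)).2.1, fun p hp => (hRb p (hsub hp)).2.2, ?_, ?_⟩
  · intro p hp q hq
    have hps := (hRb p (hsub hp)).1
    have hqs := (hRb q (hsub hq)).1
    have hpm := (hRb p (hsub hp)).2.1
    have hqm := (hRb q (hsub hq)).2.1
    rw [mem_ball] at hp hq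
    refine le_antisymm ?_ ?_
    · refine le_of_forall_pos_le_add fun η hη => ?_
      have hpq : dist p q < R / 4 := by
        have := dist_triangle_right p q x₀
        linarith only [this, hp, hq, hrR]
      obtain ⟨c, c', h1, h2, h3, h4, h5, h6⟩ := exists_chart_curve he (x := p) (y := q)
        (r := R / 2) (ε := min η (R / 8)) (fun y hy => (hRb y (by
          rw [mem_ball] at hy ⊢
          have := dist_triangle y p x₀
          linarith only [this, hy, hp, hrR, hRpos])).1)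
        (lt_min hη (by positivity))
        (by
          have := min_le_right η (R / 8)
          linarith only [this, hpq, hRpos])
      have h7 := h.le_length hR (z := e p) hpm h1 h2 (fun t ht => ?_) (fun t ht => (h5 t ht).1) h3
      · rw [h4] at h7
        have := min_le_left η (R / 8)
        linarith only [h7, h6, this]
      · have h8 := (h5 t ht).2
        have h9 : e.symm (c t) ∈ ball x₀ R := by
          rw [mem_ball]
          have h10 := dist_triangle_left (e.symm (c t)) x₀ p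
          have := min_le_right η (R / 8)
          linarith only [h8, h10, hp, hpq, hrR, hRpos, this]
        have h11 := (hRb _ h9).2.1
        rwa [e.right_inv (h5 t ht).1] at h11
    · have h1 := h.dist_le he hpm hqm
      rwa [e.left_inv hps, e.left_inv hqs] at h1
  · have h1 : K * (8 * r) ≤ K * (8 * (δ / (16 * K))) := by gcongr
    have h2 : K * (8 * (δ / (16 * K))) = δ / 2 := by field_simp; norm_num
    linarith only [h1, h2, hδ]

end

end Vale.Agent.P210.R2.H196
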