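import Mathlib.Analysis.ODE.ExistUnique
import Vale.Agent.P210.R2.H196.GeoC

set_option linter.all false

open scoped Manifold ContDiff Topology Bundle
open Set Metric Filter Bundle IsManifold MeasureTheory Manifold Asymptotics

set_option maxSynthPendingDepth 3

noncomputable section

namespace Vale.Agent.P210.R2.H196

open Vale.Agent.P210.R2.H53 Vale.Agent.P234

section Unique

variable {E : Type*} [NormedAddCommGroup E] [NormedSpace ℝ E] [FiniteDimensional ℝ E]

/-- uniqueness for second order equations -/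
theorem spray_unique {S : E → E →L[ℝ] E →L[ℝ] E} (hS : ContDiff ℝ ∞ S) {f f' g g' : ℝ → E}
    {a b : ℝ} (hab : a ≤ b)
    (hf : ∀ t ∈ Icc a b, HasDerivAt f (f' t) t)
    (hf' : ∀ t ∈ Icc a b, HasDerivAt f' (S (f t) (f' t) (f' t)) t)
    (hg : ∀ t ∈ Icc a b, HasDerivAt g (g' t) t)
    (hg' : ∀ t ∈ Icc a b, HasDerivAt g' (S (g t) (g' t) (g' t)) t)
    (h0 : f a = g a) (h1 : f' a = g' a) : f b = g b := by
  have : ProperSpace (E × E) := FiniteDimensional.proper ℝ (E × E)
  set F : E × E → E × E := fun z => (z.2, S z.1 z.2 z.2) with hF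
  have hFs : ContDiff ℝ ∞ F := by
    refine contDiff_snd.prodMk ?_
    exact ((hS.comp contDiff_fst).clm_apply contDiff_snd).clm_apply contDiff_snd
  have hcf : ContinuousOn (fun t => (f t, f' t)) (Icc a b) := fun t ht =>
    ((hf t ht).continuousAt.prodMk (hf' t ht).continuousAt).continuousWithinAt
  have hcg : ContinuousOn (fun t => (g t, g' t)) (Icc a b) := fun t ht =>
    ((hg t ht).continuousAt.prodMk (hg' t ht).continuousAt).continuousWithinAt
  obtain ⟨R₁, hR₁⟩ := ((isCompact_Icc.image_of_continuousOn hcf).isBounded).subset_closedBall 0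
  obtain ⟨R₂, hR₂⟩ := ((isCompact_Icc.image_of_continuousOn hcg).isBounded).subset_closedBall 0
  obtain ⟨K, hK⟩ := hFs.contDiffOn.exists_lipschitzOnWith (s := closedBall (0 : E × E) (max R₁ R₂))
    (by simp) (convex_closedBall _ _) (isCompact_closedBall _ _)
  have key := ODE_solution_unique_of_mem_Icc_right (v := fun _ => F)
    (s := fun _ => closedBall (0 : E × E) (max R₁ R₂)) (K := K)
    (f := fun t => (f t, f' t)) (g := fun t => (g t, g' t)) (a := a) (b := b)
    (fun t ht => hK) hcf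
    (fun t ht => ((hf t ⟨ht.1, ht.2.le⟩).prodMk (hf' t ⟨ht.1, ht.2.le⟩)).hasDerivWithinAt)
    (fun t ht => closedBall_subset_closedBall (le_max_left _ _)
      (hR₁ (mem_image_of_mem _ ⟨ht.1, ht.2.le⟩)))
    hcg
    (fun t ht => ((hg t ⟨ht.1, ht.2.le⟩).prodMk (hg' t ⟨ht.1, ht.2.le⟩)).hasDerivWithinAt)
    (fun t ht => closedBall_subset_closedBall (le_max_right _ _)
      (hR₂ (mem_image_of_mem _ ⟨ht.1, ht.2.le⟩)))
    (by simp only [h0, h1])
  have := key (right_mem_Icc.2 hab)
  simpa using congrArg Prod.fst this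

end Unique

section

variable {E : Type} [NormedAddCommGroup E] [NormedSpace ℝ E] [FiniteDimensional ℝ E]
    {M : Type} [MetricSpace M] [ChartedSpace E M]
    [RiemannianBundle (fun x : M => TangentSpace 𝓘(ℝ, E) x)]
    [IsManifold 𝓘(ℝ, E) ∞ M]
    [IsContMDiffRiemannianBundle 𝓘(ℝ, E) ∞ E (fun x : M => TangentSpace 𝓘(ℝ, E) x)]
    [IsRiemannianManifold 𝓘(ℝ, E) M]
    {e : OpenPartialHomeomorph M E} {x₀ : M} {S : E → E →L[ℝ] E →L[ℝ] E}
    {X L : E × E → E} {δ ρ K r : ℝ}

theorem CD.hasFDerivAt_sqrt (he : e ∈ maximalAtlas 𝓘(ℝ, E) ∞ M) (h : CD e x₀ S X L δ ρ K r)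
    {p m : M} (hp : p ∈ ball x₀ r) (hm : m ∈ ball x₀ r) (hpm : 0 < dist p m) :
    HasFDerivAt (fun c => dist p (e.symm c))
      (chartG e (e m) ((dist p m)⁻¹ • LD.vel X (e p) (L (e p, e m)) 1)) (e m) := by
  have hR := localRiem_chartG he
  have h1 := h.ld.grad hR (h.mem p hp) (h.mem m hm)
  have h2 : √(chartG e (e p) (L (e p, e m)) (L (e p, e m))) = dist p m := h.norm_log p hp m hm
  have h3 : chartG e (e p) (L (e p, e m)) (L (e p, e m)) ≠ 0 := by
    intro h0
    rw [h0, Real.sqrt_zero] at h2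
    exact hpm.ne h2
  have h4 := h1.sqrt h3
  rw [h2] at h4
  have h5 : (fun c => dist p (e.symm c)) =ᶠ[𝓝 (e m)]
      fun y => √(chartG e (e p) (L (e p, y)) (L (e p, y))) := by
    have h6 : ContinuousAt e.symm (e m) := e.symm.continuousAt (e.map_source (h.src hm))
    have h7 : ∀ᶠ c in 𝓝 (e m), e.symm c ∈ ball x₀ r := by
      refine h6.eventually ?_
      rw [e.left_inv (h.src hm)]
      exact isOpen_ball.mem_nhds hm
    filter_upwards [h7, e.open_target.mem_nhds (e.map_source (h.src hm))] with c hc1 hc2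
    have h8 := h.norm_log p hp _ hc1
    rw [e.right_inv hc2] at h8
    exact h8.symm
  refine (h4.congr_of_eventuallyEq h5).congr_fderiv ?_
  ext ζ
  simp only [smul_apply, map_smul, smul_eq_mul]
  field_simp

theorem CD.no_corner (he : e ∈ maximalAtlas 𝓘(ℝ, E) ∞ M) (h : CD e x₀ S X L δ ρ K r)
    {p m q : M} (hp : p ∈ ball x₀ r) (hm : m ∈ ball x₀ r) (hq : q ∈ ball x₀ r)
    (hpm : 0 < dist p m) (hmq : 0 < dist m q) (hsum : dist p m + dist m q = dist p q) :
    (dist p m)⁻¹ • LD.vel X (e p) (L (e p, e m)) 1 =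
      -((dist q m)⁻¹ • LD.vel X (e q) (L (e q, e m)) 1) := by
  have hR := localRiem_chartG he
  have h1 := h.hasFDerivAt_sqrt he hp hm hpm
  have h2 := h.hasFDerivAt_sqrt he hq hm (by rwa [dist_comm])
  have h3 := h1.add h2
  have hmin : IsLocalMin (fun c => dist p (e.symm c) + dist q (e.symm c)) (e m) := by
    refine Filter.Eventually.of_forall fun c => ?_
    simp only
    rw [e.left_inv (h.src hm), dist_comm q m, hsum, dist_comm q (e.symm c)]
    exact dist_triangle _ _ _
  have h4 := hmin.hasFDerivAt_eq_zero h3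
  rw [← map_add] at h4
  set w := (dist p m)⁻¹ • LD.vel X (e p) (L (e p, e m)) 1 +
    (dist q m)⁻¹ • LD.vel X (e q) (L (e q, e m)) 1 with hw
  have h5 : w = 0 := by
    by_contra hne
    have h6 := hR.pos (e m) (e.map_source (h.src hm)) w hne
    rw [h4] at h6
    simp at h6
  exact eq_neg_of_add_eq_zero_left h5

/-- a minimal geodesic through the middle is a ray -/
theorem CD.extend (he : e ∈ maximalAtlas 𝓘(ℝ, E) ∞ M) (h : CD e x₀ S X L δ ρ K r)
    {p m q : M} (hp : p ∈ ball x₀ r) (hm : m ∈ ball x₀ r) (hq : q ∈ ball x₀ r)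
    (hpm : 0 < dist p m) (hmq : 0 < dist m q) (hsum : dist p m + dist m q = dist p q) :
    L (e p, e m) = (dist p m / dist p q) • L (e p, e q) := by
  have hR := localRiem_chartG he
  have hmp := h.mem p hp
  have hmm := h.mem m hm
  have hmq' := h.mem q hq
  set d₁ := dist p m with hd₁
  set d₂ := dist m q with hd₂
  set d := dist p q with hd
  have hd0 : 0 < d := by rw [← hsum]; positivity
  have hd2r : d < 2 * r := by
    have h1 := dist_triangle_right p q x₀
    rw [mem_ball] at hp hq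
    linarith only [h1, hp, hq]
  have hsm := h.small
  have hK := h.Kpos
  have hr := h.rpos
  have hKd : K * d < δ := by
    have h1 : K * d ≤ K * (8 * r) := by gcongr; linarith only [hd2r, hr]
    linarith only [h1, hsm]
  set a := d₁⁻¹ • L (e p, e m) with ha
  set b := d₂⁻¹ • L (e q, e m) with hb
  -- unit vectors
  have hunit : ∀ {p m : M}, p ∈ ball x₀ r → m ∈ ball x₀ r → 0 < dist p m →
      ‖(dist p m)⁻¹ • L (e p, e m)‖ ≤ K := by
    intro p m hp hm hpm
    have h1 := h.low p hp (L (e p, e m))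
    rw [h.norm_log p hp m hm] at h1
    rw [norm_smul, norm_inv, Real.norm_of_nonneg dist_nonneg, inv_mul_le_iff₀ hpm]
    linarith only [h1]
  have hKa : ‖a‖ ≤ K := hunit hp hm hpm
  have hKb : ‖b‖ ≤ K := by
    have := hunit hq hm (by rw [dist_comm]; exact hmq)
    rwa [dist_comm q m] at this
  have hball : ∀ {v : E}, ‖v‖ ≤ K → ∀ t ∈ Icc 0 d, t • v ∈ ball (0 : E) δ := by
    intro v hv t ht
    rw [mem_ball_zero_iff, norm_smul, Real.norm_of_nonneg ht.1]
    have h1 : t * ‖v‖ ≤ d * K := by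
      have := ht.1
      have := ht.2
      gcongr
    linarith only [h1, hKd]
  have hd₁d : d₁ ≤ d := by rw [← hsum]; linarith only [hmq]
  have hsub : d - d₁ = d₂ := by rw [← hsum]; ring
  have hA : d₁ • a = L (e p, e m) := by rw [ha, smul_smul, mul_inv_cancel₀ hpm.ne', one_smul]
  have hB : d₂ • b = L (e q, e m) := by rw [hb, smul_smul, mul_inv_cancel₀ hmq.ne', one_smul]
  have hvel : ∀ {z v : E} {s : ℝ}, LD.vel X z v s = fderiv ℝ (fun w => X (z, w)) (s • v) v :=
    fun {z v s} => rfl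
  have key := spray_unique h.ld.smoothS (f := LD.pos X (e p) a) (f' := LD.vel X (e p) a)
    (g := fun t => LD.pos X (e q) b (d - t)) (g' := fun t => -LD.vel X (e q) b (d - t))
    (a := d₁) (b := d) hd₁d
    (fun t ht => (h.ld.ray hR hmp a (hball hKa t ⟨hpm.le.trans ht.1, ht.2⟩)).1)
    (fun t ht => (h.ld.ray hR hmp a (hball hKa t ⟨hpm.le.trans ht.1, ht.2⟩)).2.1)
    (fun t ht => ?_) (fun t ht => ?_) ?_ ?_
  · simp only [LD.pos, sub_self, zero_smul] at key
    have h0 : X (e q, 0) = e q := (h.ld.geo _ hmq').zero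
    rw [h0] at key
    have h2 := h.ld.logX (e p) hmp (d • a) (hball hKa d ⟨hd0.le, le_rfl⟩)
    rw [key] at h2
    rw [h2, smul_smul, div_mul_cancel₀ _ hd0.ne', hA]
  · have hin : d - t ∈ Icc 0 d := ⟨sub_nonneg.2 ht.2, by linarith only [hpm, ht.1]⟩
    have h1 := (h.ld.ray hR hmq' b (hball hKb _ hin)).1
    have h2 : HasDerivAt (fun t : ℝ => d - t) (-1) t := by
      simpa using (hasDerivAt_id t).const_sub d
    have h3 := h1.scomp t h2
    refine h3.congr_deriv ?_
    simp
  · have hin : d - t ∈ Icc 0 d := ⟨sub_nonneg.2 ht.2, by linarith only [hpm, ht.1]⟩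
    have h1 := (h.ld.ray hR hmq' b (hball hKb _ hin)).2.1
    have h2 : HasDerivAt (fun t : ℝ => d - t) (-1) t := by
      simpa using (hasDerivAt_id t).const_sub d
    have h3 := (h1.scomp t h2).neg
    refine h3.congr_deriv ?_
    simp
  · simp only [LD.pos, hsub, hA, hB]
    rw [h.ld.expL _ hmp _ hmm, h.ld.expL _ hmq' _ hmm]
  · have h1 := h.no_corner he hp hm hq hpm hmq hsum
    rw [dist_comm q m] at h1
    simp only [hvel, one_smul, ← map_smul] at h1
    simp only [hvel, hsub, hA, hB]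
    exact h1

end

end Vale.Agent.P210.R2.H196
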