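import Vale.Agent.P210.R2.H196.GeoA
import Vale.Agent.P210.R2.H196.GeoD

set_option linter.all false

open scoped Manifold ContDiff Topology Bundle
open Set Metric Filter Bundle IsManifold MeasureTheory Manifold Asymptotics

set_option maxSynthPendingDepth 3

noncomputable section

namespace Vale.Agent.P210.R2.H196

open Vale.Agent.P210.R2.H53 Vale.Agent.P234

section

variable {E : Type} [NormedAddCommGroup E] [NormedSpace ℝ E] [FiniteDimensional ℝ E]
    {M : Type} [MetricSpace M] [ChartedSpace E M]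
    [RiemannianBundle (fun x : M => TangentSpace 𝓘(ℝ, E) x)]
    [IsManifold 𝓘(ℝ, E) ∞ M]
    [IsContMDiffRiemannianBundle 𝓘(ℝ, E) ∞ E (fun x : M => TangentSpace 𝓘(ℝ, E) x)]
    [IsRiemannianManifold 𝓘(ℝ, E) M]
    {e : OpenPartialHomeomorph M E} {x₀ : M} {S : E → E →L[ℝ] E →L[ℝ] E}
    {X L : E × E → E} {δ ρ K r : ℝ}

theorem CD.pos_zero (h : CD e x₀ S X L δ ρ K r) {p : M} (hp : p ∈ ball x₀ r) (v : E) :
    LD.pos X (e p) v 0 = e p := by
  simp only [LD.pos, zero_smul]
  exact (h.ld.geo _ (h.mem p hp)).zero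

theorem CD.vel_zero (h : CD e x₀ S X L δ ρ K r) {p : M} (hp : p ∈ ball x₀ r) (v : E) :
    LD.vel X (e p) v 0 = v := by
  simp only [LD.vel, zero_smul]
  rw [(h.ld.geo _ (h.mem p hp)).dzero.fderiv]
  rfl

theorem CD.unit_le (h : CD e x₀ S X L δ ρ K r) {p m : M} (hp : p ∈ ball x₀ r)
    (hm : m ∈ ball x₀ r) (hpm : 0 < dist p m) : ‖(dist p m)⁻¹ • L (e p, e m)‖ ≤ K := by
  have h1 := h.low p hp (L (e p, e m))
  rw [h.norm_log p hp m hm] at h1
  rw [norm_smul, norm_inv, Real.norm_of_nonneg dist_nonneg, inv_mul_le_iff₀ hpm]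
  linarith only [h1]

theorem CD.unit_speed (he : e ∈ maximalAtlas 𝓘(ℝ, E) ∞ M) (h : CD e x₀ S X L δ ρ K r)
    {p m : M} (hp : p ∈ ball x₀ r) (hm : m ∈ ball x₀ r) (hpm : 0 < dist p m) :
    chartG e (e p) ((dist p m)⁻¹ • L (e p, e m)) ((dist p m)⁻¹ • L (e p, e m)) = 1 := by
  have hR := localRiem_chartG he
  have h1 := h.norm_log p hp m hm
  have h0 : 0 ≤ chartG e (e p) (L (e p, e m)) (L (e p, e m)) := by
    by_cases hy : L (e p, e m) = 0
    · simp [hy]
    · exact (hR.pos _ (e.map_source (h.src hp)) _ hy).le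
  have h2 : chartG e (e p) (L (e p, e m)) (L (e p, e m)) = dist p m ^ 2 := by
    rw [← h1, Real.sq_sqrt h0]
  simp only [map_smul, smul_apply, smul_eq_mul]
  rw [h2]
  field_simp

/-- minimal geodesics are rays -/
theorem CD.geo_ray (he : e ∈ maximalAtlas 𝓘(ℝ, E) ∞ M) (h : CD e x₀ S X L δ ρ K r)
    {c : ℝ → M} {s l : ℝ} (hl : 0 < l) (hc : MinGeo c s (s + l)) (hp : dist (c s) x₀ < r / 4)
    (hq : dist (c (s + l)) x₀ < r / 4) {τ : ℝ} (hτ : τ ∈ Icc 0 l) :
    c (s + τ) ∈ ball x₀ r ∧ e (c (s + τ)) =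
      LD.pos X (e (c s)) ((dist (c s) (c (s + l)))⁻¹ • L (e (c s), e (c (s + l)))) τ := by
  have hr := h.rpos
  have hs : s ∈ Icc s (s + l) := ⟨le_rfl, by linarith only [hl]⟩
  have hsl : s + l ∈ Icc s (s + l) := ⟨by linarith only [hl], le_rfl⟩
  have hsτ : s + τ ∈ Icc s (s + l) := ⟨by linarith only [hτ.1], by linarith only [hτ.2]⟩
  have hd : dist (c s) (c (s + l)) = l := by
    rw [hc s hs _ hsl, sub_add_cancel_left, abs_neg, abs_of_pos hl]
  have hdτ : dist (c s) (c (s + τ)) = τ := by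
    rw [hc s hs _ hsτ, sub_add_cancel_left, abs_neg, abs_of_nonneg hτ.1]
  have hdτ' : dist (c (s + τ)) (c (s + l)) = l - τ := by
    rw [hc _ hsτ _ hsl, abs_of_nonpos (by linarith only [hτ.2])]
    ring
  have hl2 : l < r / 2 := by
    have := dist_triangle_right (c s) (c (s + l)) x₀
    linarith only [this, hp, hq, hd]
  have hpb : c s ∈ ball x₀ r := by rw [mem_ball]; linarith only [hp, hr]
  have hqb : c (s + l) ∈ ball x₀ r := by rw [mem_ball]; linarith only [hq, hr]
  have hmb : c (s + τ) ∈ ball x₀ r := by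
    rw [mem_ball]
    have := dist_triangle_left (c (s + τ)) x₀ (c s)
    linarith only [this, hdτ, hτ.2, hl2, hp, hr]
  refine ⟨hmb, ?_⟩
  rcases hτ.1.eq_or_lt with h0 | h0
  · rw [← h0, add_zero, h.pos_zero hpb]
  rcases hτ.2.eq_or_lt with h1 | h1
  · rw [h1, LD.pos, hd, smul_smul, mul_inv_cancel₀ hl.ne', one_smul,
      h.ld.expL _ (h.mem _ hpb) _ (h.mem _ hqb)]
  · have h2 := h.extend he hpb hmb hqb (by rw [hdτ]; exact h0) (by rw [hdτ']; linarith only [h1])
      (by rw [hdτ, hdτ', hd]; ring)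
    rw [hdτ, hd] at h2
    rw [LD.pos, hd, smul_smul, ← div_eq_mul_inv, ← h2,
      h.ld.expL _ (h.mem _ hpb) _ (h.mem _ hmb)]

theorem geo_two {e : OpenPartialHomeomorph M E} (he : e ∈ maximalAtlas 𝓘(ℝ, E) ∞ M)
    (c : ℝ → M) (a b s₀ : ℝ) (hab : a < b) (hc : MinGeo c a b) (hs₀ : s₀ ∈ Icc a b)
    (hcs : c s₀ ∈ e.source) :
    ∃ δ > 0, ∃ w w' : ℝ → E, (∀ t, |t - s₀| < δ → GeoAt e w w' t) ∧
      ∀ t ∈ Icc a b, |t - s₀| < δ → c t ∈ e.source ∧ e (c t) = w t := by
  have hR := localRiem_chartG he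
  obtain ⟨S, X, L, δ, ρ, K, r, h⟩ := exists_CD he hcs
  have hr := h.rpos
  have hK := h.Kpos
  set η := r / 8 with hη
  have hηpos : 0 < η := by positivity
  set a' := max a (s₀ - η) with ha'
  set b' := min b (s₀ + η) with hb'
  have haa' : a ≤ a' := le_max_left _ _
  have ha's : a' ≤ s₀ := max_le hs₀.1 (by linarith only [hηpos])
  have ha's' : s₀ - η ≤ a' := le_max_right _ _
  have hb'b : b' ≤ b := min_le_left _ _
  have hsb' : s₀ ≤ b' := le_min hs₀.2 (by linarith only [hηpos])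
  have hsb'' : b' ≤ s₀ + η := min_le_right _ _
  have hab' : a' < b' := by
    rw [ha', hb', max_lt_iff, lt_min_iff, lt_min_iff]
    refine ⟨⟨hab, by linarith only [hs₀.1, hηpos]⟩, by linarith only [hs₀.2, hηpos],
      by linarith only [hηpos]⟩
  obtain ⟨l, hl⟩ : ∃ l, l = b' - a' := ⟨_, rfl⟩
  have hlpos : 0 < l := by rw [hl]; linarith only [hab']
  have hbl : a' + l = b' := by rw [hl]; ring
  have hmem : ∀ t ∈ Icc a' b', t ∈ Icc a b := fun t ht => ⟨haa'.trans ht.1, ht.2.trans hb'b⟩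
  have hc' : MinGeo c a' (a' + l) := by
    rw [hbl]
    exact fun s hs t ht => hc s (hmem s hs) t (hmem t ht)
  have hpa : dist (c a') (c s₀) < r / 4 := by
    rw [hc _ (hmem a' ⟨le_rfl, hab'.le⟩) _ hs₀, abs_of_nonpos (by linarith only [ha's])]
    linarith only [ha's', hη, hr]
  have hpb : dist (c (a' + l)) (c s₀) < r / 4 := by
    rw [hbl, hc _ (hmem b' ⟨hab'.le, le_rfl⟩) _ hs₀, abs_of_nonneg (by linarith only [hsb'])]
    linarith only [hsb'', hη, hr]
  have hpar : c a' ∈ ball (c s₀) r := by rw [mem_ball]; linarith only [hpa, hr]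
  have hpbr : c (a' + l) ∈ ball (c s₀) r := by rw [mem_ball]; linarith only [hpb, hr]
  have hd : 0 < dist (c a') (c (a' + l)) := by
    rw [hc' _ ⟨le_rfl, by linarith only [hlpos]⟩ _ ⟨by linarith only [hlpos], le_rfl⟩,
      sub_add_cancel_left, abs_neg, abs_of_pos hlpos]
    exact hlpos
  set v := (dist (c a') (c (a' + l)))⁻¹ • L (e (c a'), e (c (a' + l))) with hv
  have hvK : ‖v‖ ≤ K := h.unit_le hpar hpbr hd
  have hball : ∀ t, |t - s₀| < η → (t - a') • v ∈ ball (0 : E) δ := by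
    intro t ht
    rw [mem_ball_zero_iff, norm_smul, Real.norm_eq_abs]
    have h1 : |t - a'| ≤ 2 * η := by
      rw [abs_lt] at ht
      rw [abs_le]
      constructor
      · linarith only [ht.1, ha's, hηpos]
      · linarith only [ht.2, ha's']
    have h2 : |t - a'| * ‖v‖ ≤ (2 * η) * K := by gcongr
    have h3 : (2 * η) * K ≤ K * (8 * r) := by
      have : 0 < K * r := by positivity
      rw [hη]
      linarith only [this]
    linarith only [h2, h3, h.small]
  refine ⟨η, hηpos, fun t => LD.pos X (e (c a')) v (t - a'), fun t => LD.vel X (e (c a')) v (t - a'),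
    fun t ht => ?_, fun t ht hts => ?_⟩
  · obtain ⟨h1, h2, h3, h4, h5⟩ := h.ld.ray hR (h.mem _ hpar) v (hball t ht)
    have h6 : HasDerivAt (fun t : ℝ => t - a') 1 t := (hasDerivAt_id t).sub_const a'
    refine ⟨?_, ?_, h4, ?_⟩
    · refine (h1.scomp t h6).congr_deriv ?_
      simp
    · rw [h3] at h2
      refine (h2.scomp t h6).congr_deriv ?_
      simp
    · rw [h5]
      exact h.unit_speed he hpar hpbr hd
  · have ht' : t ∈ Icc a' b' := by
      rw [abs_lt] at hts
      exact ⟨max_le ht.1 (by linarith only [hts.1]), le_min ht.2 (by linarith only [hts.2])⟩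
    have h1 := h.geo_ray he hlpos hc' hpa hpb (τ := t - a')
      ⟨sub_nonneg.2 ht'.1, by rw [hl]; linarith only [ht'.2]⟩
    rw [add_sub_cancel] at h1
    exact ⟨h.src h1.1, h1.2⟩

theorem geo_three (x : M) {e : OpenPartialHomeomorph M E} (he : e ∈ maximalAtlas 𝓘(ℝ, E) ∞ M)
    (hx : x ∈ e.source) : ∃ r > 0, ∃ V : M × M → E,
    ContinuousOn V {y | dist y.1 x < r ∧ dist y.2 x < r ∧ y.1 ≠ y.2} ∧
    ∀ (c : ℝ → M) (s h : ℝ), 0 < h → MinGeo c s (s + h) → dist (c s) x < r →
      dist (c (s + h)) x < r →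
      HasDerivWithinAt (fun t => e (c t)) (V (c s, c (s + h))) (Icc s (s + h)) s := by
  have hR := localRiem_chartG he
  obtain ⟨S, X, L, δ, ρ, K, r, h⟩ := exists_CD he hx
  have hr := h.rpos
  refine ⟨r / 4, by positivity, fun y => (dist y.1 y.2)⁻¹ • L (e y.1, e y.2), ?_, ?_⟩
  · intro y hy
    obtain ⟨h1, h2, h3⟩ := hy
    refine ContinuousAt.continuousWithinAt ?_
    have hb1 : y.1 ∈ ball x r := by rw [mem_ball]; linarith only [h1, hr]
    have hb2 : y.2 ∈ ball x r := by rw [mem_ball]; linarith only [h2, hr]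
    refine ContinuousAt.smul ?_ ?_
    · exact (continuous_fst.dist continuous_snd).continuousAt.inv₀ (dist_ne_zero.2 h3)
    · have c1 : ContinuousAt (fun y : M × M => e y.1) y :=
        ContinuousAt.comp (g := e) (f := fun y : M × M => y.1) (e.continuousAt (h.src hb1))
          continuousAt_fst
      have c2 : ContinuousAt (fun y : M × M => e y.2) y :=
        ContinuousAt.comp (g := e) (f := fun y : M × M => y.2) (e.continuousAt (h.src hb2))
          continuousAt_snd
      exact ContinuousAt.comp (g := L) (f := fun y : M × M => (e y.1, e y.2))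
        (h.ld.smoothL _ (h.mem _ hb1) _ (h.mem _ hb2)).continuousAt (c1.prodMk c2)
  · intro c s l hl hc h1 h2
    have hb1 : c s ∈ ball x r := by rw [mem_ball]; linarith only [h1, hr]
    have h3 : ∀ t ∈ Icc s (s + l), e (c t) = LD.pos X (e (c s))
        ((dist (c s) (c (s + l)))⁻¹ • L (e (c s), e (c (s + l)))) (t - s) := by
      intro t ht
      have h4 := (h.geo_ray he hl hc h1 h2 (τ := t - s)
        ⟨sub_nonneg.2 ht.1, by linarith only [ht.2]⟩).2
      rwa [add_sub_cancel] at h4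
    set v := (dist (c s) (c (s + l)))⁻¹ • L (e (c s), e (c (s + l))) with hv
    have h5 := (h.ld.ray hR (h.mem _ hb1) v (t := s - s)
      (by rw [sub_self, zero_smul]; exact mem_ball_self h.ld.δpos)).1
    have h6 : HasDerivAt (fun t : ℝ => t - s) 1 s := (hasDerivAt_id s).sub_const s
    have h7 := (HasDerivAt.scomp (h := fun t : ℝ => t - s) s h5 h6).hasDerivWithinAt
      (s := Icc s (s + l))
    rw [sub_self, h.vel_zero hb1, one_smul] at h7
    refine h7.congr (fun t ht => h3 t ht) (h3 s ⟨le_rfl, by linarith only [hl]⟩)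

end

/-- GEO -/
theorem geo : Stmt.GEO := by
  intro E _ _ _ M _ _ _ _ _ _
  refine ⟨fun hcomp _ => geo_one E M hcomp, ?_, ?_⟩
  · intro c a b s₀ hab hc hs e he hcs
    exact geo_two he c a b s₀ hab hc hs hcs
  · intro x e he hx
    exact geo_three x he hx

end Vale.Agent.P210.R2.H196
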