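import Vale.Agent.P210.R2.H53.SpecR

set_option linter.all false

open scoped Manifold ContDiff Topology Bundle
open Set Metric Filter Bundle IsManifold MeasureTheory Manifold Asymptotics

set_option maxSynthPendingDepth 3

namespace Vale.Agent.P210.R2.H196

open Vale.Agent.P210.R2.H53

/-- finite approximations of geodesics -/
theorem exists_finset_geo {X : Type*} [MetricSpace X]
    (hmid : ∀ x y : X, ∀ s : ℝ, 0 ≤ s → s ≤ dist x y →
      ∃ z, dist x z = s ∧ dist z y = dist x y - s) (x y : X) (F : Finset ℝ) :
    (∀ s ∈ F, s ∈ Icc 0 (dist x y)) → ∃ c : ℝ → X,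
      (∀ s ∈ F, ∀ t ∈ F, dist (c s) (c t) = |s - t|) ∧
      ∀ s ∈ F, dist x (c s) = s ∧ dist (c s) y = dist x y - s := by
  classical
  induction F using Finset.induction_on_max with
  | empty => intro _; exact ⟨fun _ => x, by simp, by simp⟩
  | insert a F hF ih =>
    intro hmem
    obtain ⟨c, hc1, hc2⟩ := ih (fun s hs => hmem s (Finset.mem_insert_of_mem hs))
    have ha : a ∈ Icc 0 (dist x y) := hmem a (Finset.mem_insert_self _ _)
    have haF : a ∉ F := fun h => lt_irrefl _ (hF a h)
    -- the new point
    obtain ⟨z, hz1, hz2, hz3⟩ : ∃ z, (dist x z = a ∧ dist z y = dist x y - a) ∧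
        (∀ s ∈ F, dist (c s) z ≤ a - s) ∧ True := by
      rcases F.eq_empty_or_nonempty with h0 | h0
      · obtain ⟨z, h1, h2⟩ := hmid x y a ha.1 ha.2
        exact ⟨z, ⟨h1, h2⟩, by simp [h0], trivial⟩
      · set m := F.max' h0 with hm
        have hmF : m ∈ F := F.max'_mem h0
        have hma : m < a := hF m hmF
        obtain ⟨h3, h4⟩ := hc2 m hmF
        obtain ⟨z, h1, h2⟩ := hmid (c m) y (a - m) (by linarith only [hma])
          (by rw [h4]; linarith only [ha.2])
        have h5 : dist x z ≤ a := by
          have := dist_triangle x (c m) z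
          linarith only [this, h3, h1]
        have h6 := dist_triangle x z y
        have h7 : dist z y = dist x y - a := by rw [h2, h4]; ring
        refine ⟨z, ⟨le_antisymm h5 (by linarith only [h6, h7]), h7⟩, ?_, trivial⟩
        intro s hs
        have h8 := hc1 s hs m hmF
        have h9 : s ≤ m := F.le_max' s hs
        rw [abs_of_nonpos (by linarith only [h9])] at h8
        have := dist_triangle (c s) (c m) z
        linarith only [this, h8, h1]
    have hz4 : ∀ s ∈ F, dist (c s) z = a - s := by
      intro s hs
      refine le_antisymm (hz2 s hs) ?_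
      have h1 := dist_triangle (c s) z y
      have h2 := (hc2 s hs).2
      linarith only [h1, h2, hz1.2]
    refine ⟨Function.update c a z, ?_, ?_⟩
    · intro s hs t ht
      rcases Finset.mem_insert.1 hs with hsa | hs'
      · rcases Finset.mem_insert.1 ht with hta | ht'
        · rw [hsa, hta]; simp
        · have hne : t ≠ a := fun h => haF (h ▸ ht')
          rw [hsa, Function.update_self, Function.update_of_ne hne, dist_comm, hz4 t ht',
            abs_of_nonneg (by have := hF t ht'; linarith only [this])]
      · have hne : s ≠ a := fun h => haF (h ▸ hs')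
        rcases Finset.mem_insert.1 ht with hta | ht'
        · rw [hta, Function.update_self, Function.update_of_ne hne, hz4 s hs',
            abs_of_nonpos (by have := hF s hs'; linarith only [this])]
          ring
        · have hne' : t ≠ a := fun h => haF (h ▸ ht')
          rw [Function.update_of_ne hne, Function.update_of_ne hne', hc1 s hs' t ht']
    · intro s hs
      rcases Finset.mem_insert.1 hs with rfl | hs
      · rw [Function.update_self]; exact hz1
      · have hne : s ≠ a := fun h => haF (h ▸ hs)
        rw [Function.update_of_ne hne]; exact hc2 s hs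

/-- existence of minimal geodesics in proper spaces with midpoints -/
theorem exists_minGeo {X : Type*} [MetricSpace X] [ProperSpace X]
    (hmid : ∀ x y : X, ∀ s : ℝ, 0 ≤ s → s ≤ dist x y →
      ∃ z, dist x z = s ∧ dist z y = dist x y - s) (x y : X) :
    ∃ c : ℝ → X, MinGeo c 0 (dist x y) ∧ c 0 = x ∧ c (dist x y) = y := by
  classical
  set d := dist x y with hd
  let I := {F : Finset ℝ // ∀ s ∈ F, s ∈ Icc 0 d}
  let K : I → Set (ℝ → X) := fun F => {c | (∀ s, c s ∈ closedBall x d) ∧
      (∀ s ∈ F.1, ∀ t ∈ F.1, dist (c s) (c t) = |s - t|) ∧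
      ∀ s ∈ F.1, dist x (c s) = s ∧ dist (c s) y = d - s}
  have hball : IsCompact (Set.pi univ (fun _ : ℝ => closedBall x d)) :=
    isCompact_univ_pi (fun _ => isCompact_closedBall x d)
  have hclosed : ∀ F, IsClosed (K F) := by
    intro F
    have e : K F = (⋂ s, {c : ℝ → X | c s ∈ closedBall x d}) ∩
        ((⋂ s ∈ F.1, ⋂ t ∈ F.1, {c : ℝ → X | dist (c s) (c t) = |s - t|}) ∩
        (⋂ s ∈ F.1, {c : ℝ → X | dist x (c s) = s ∧ dist (c s) y = d - s})) := by
      ext c
      simp [K]
    rw [e]
    refine (isClosed_iInter fun s => ?_).inter ((isClosed_biInter fun s _ =>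
      isClosed_biInter fun t _ => ?_).inter (isClosed_biInter fun s _ => ?_))
    · exact isClosed_closedBall.preimage (continuous_apply s)
    · exact isClosed_eq ((continuous_apply s).dist (continuous_apply t)) continuous_const
    · exact (isClosed_eq (continuous_const.dist (continuous_apply s)) continuous_const).inter
        (isClosed_eq ((continuous_apply s).dist continuous_const) continuous_const)
  have hcompact : ∀ F, IsCompact (K F) := by
    intro F
    refine hball.of_isClosed_subset (hclosed F) ?_
    intro c hc s _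
    exact hc.1 s
  have hne : ∀ F, (K F).Nonempty := by
    intro F
    obtain ⟨c, hc1, hc2⟩ := exists_finset_geo hmid x y F.1 F.2
    refine ⟨fun s => if s ∈ F.1 then c s else x, ?_, ?_, ?_⟩
    · intro s
      by_cases hs : s ∈ F.1
      · simp only [hs, if_true]
        rw [mem_closedBall, dist_comm, (hc2 s hs).1]
        exact (F.2 s hs).2
      · simp only [hs, if_false]
        exact mem_closedBall_self dist_nonneg
    · intro s hs t ht
      simp only [hs, ht, if_true]
      exact hc1 s hs t ht
    · intro s hs
      simp only [hs, if_true]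
      exact hc2 s hs
  have hdir : Directed (· ⊇ ·) K := by
    intro F F'
    refine ⟨⟨F.1 ∪ F'.1, fun s hs => ?_⟩, ?_, ?_⟩
    · rcases Finset.mem_union.1 hs with h | h
      · exact F.2 s h
      · exact F'.2 s h
    · intro c hc
      exact ⟨hc.1, fun s hs t ht => hc.2.1 s (Finset.mem_union_left _ hs) t
        (Finset.mem_union_left _ ht), fun s hs => hc.2.2 s (Finset.mem_union_left _ hs)⟩
    · intro c hc
      exact ⟨hc.1, fun s hs t ht => hc.2.1 s (Finset.mem_union_right _ hs) t
        (Finset.mem_union_right _ ht), fun s hs => hc.2.2 s (Finset.mem_union_right _ hs)⟩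
  have : Nonempty I := ⟨⟨∅, by simp⟩⟩
  obtain ⟨c, hc⟩ := IsCompact.nonempty_iInter_of_directed_nonempty_isCompact_isClosed K hdir hne
    hcompact hclosed
  rw [mem_iInter] at hc
  refine ⟨c, ?_, ?_, ?_⟩
  · intro s hs t ht
    have h := hc ⟨{s, t}, by
      intro r hr
      rw [Finset.mem_insert, Finset.mem_singleton] at hr
      rcases hr with rfl | rfl
      · exact hs
      · exact ht⟩
    exact h.2.1 s (by simp) t (by simp)
  · have h := hc ⟨{0}, by
      intro r hr
      rw [Finset.mem_singleton] at hr
      rw [hr]
      exact ⟨le_rfl, dist_nonneg⟩⟩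
    have h1 := (h.2.2 0 (by simp)).1
    exact (dist_eq_zero.1 h1).symm
  · have h := hc ⟨{d}, by
      intro r hr
      rw [Finset.mem_singleton] at hr
      rw [hr]
      exact ⟨dist_nonneg, le_rfl⟩⟩
    have h1 := (h.2.2 d (by simp)).2
    rw [sub_self] at h1
    exact dist_eq_zero.1 h1

/-- GEO, first part -/
theorem geo_one (E : Type) [NormedAddCommGroup E] [NormedSpace ℝ E] [FiniteDimensional ℝ E]
    (M : Type) [MetricSpace M] [ChartedSpace E M]
    [RiemannianBundle (fun x : M => TangentSpace 𝓘(ℝ, E) x)]
    [IsManifold 𝓘(ℝ, E) ∞ M]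
    [IsContMDiffRiemannianBundle 𝓘(ℝ, E) ∞ E (fun x : M => TangentSpace 𝓘(ℝ, E) x)]
    [IsRiemannianManifold 𝓘(ℝ, E) M] (hc : CompleteSpace M) :
    ProperSpace M ∧ ∀ x y : M, ∃ c : ℝ → M,
      MinGeo c 0 (dist x y) ∧ c 0 = x ∧ c (dist x y) = y := by
  have hp : ProperSpace M := properSpace_riemannian E M
  refine ⟨hp, fun x y => exists_minGeo (fun x y s hs hsd => ?_) x y⟩
  exact exists_mid (approxMid_of_riemannian E M) x y s hs hsd

end Vale.Agent.P210.R2.H196
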