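import Mathlib

/-!
# P210, module HAUS: balls of a Riemannian manifold have positive finite Hausdorff measure
-/

open Set Filter MeasureTheory Bundle Manifold
open scoped Topology RealInnerProductSpace Manifold ContDiff ENNReal NNReal

set_option maxSynthPendingDepth 3

noncomputable section

namespace Vale.Agent.P210.R2.H196

section loc

variable {E : Type*} [NormedAddCommGroup E] [NormedSpace ℝ E]
  {H : Type*} [TopologicalSpace H] {I : ModelWithCorners ℝ E H}
  {M : Type*} [TopologicalSpace M] [ChartedSpace H M]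
  [RiemannianBundle (fun (x : M) ↦ TangentSpace I x)]
  [IsManifold I 1 M] [IsContinuousRiemannianBundle E (fun (x : M) ↦ TangentSpace I x)]

attribute [local instance] normedAddCommGroupTangentSpaceVectorSpace
attribute [local instance] normedSpaceTangentSpaceVectorSpace

variable (I)

set_option backward.isDefEq.respectTransparency false in
/-- Two point version of `eventually_riemannianEDist_le_edist_extChartAt`. -/
lemma riemannianEDist_le_two (x : M) :
    ∃ C > (0 : ℝ≥0), ∀ᶠ p : M × M in 𝓝 (x, x),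
    riemannianEDist I p.1 p.2 ≤ C * edist (extChartAt I x p.1) (extChartAt I x p.2) := by
  rcases eventually_enorm_mfderivWithin_symm_extChartAt_lt I x with ⟨C, C_pos, hC⟩
  refine ⟨C, C_pos, ?_⟩
  obtain ⟨r, r_pos, hr⟩ : ∃ r > 0,
      Metric.ball (extChartAt I x x) r ∩ range I ⊆ (extChartAt I x).target ∩
        {y | ‖mfderivWithin 𝓘(ℝ, E) I (extChartAt I x).symm (range I) y‖ₑ < C} :=
    Metric.mem_nhdsWithin_iff.1 (inter_mem (extChartAt_target_mem_nhdsWithin x) hC)
  have A : (extChartAt I x) ⁻¹' (Metric.ball (extChartAt I x x) r ∩ range I) ∈ 𝓝 x := by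
    apply extChartAt_preimage_mem_nhds_of_mem_nhdsWithin (by simp)
    rw [inter_comm]
    exact inter_mem_nhdsWithin _ (Metric.ball_mem_nhds _ r_pos)
  have hev : ∀ᶠ p : M × M in 𝓝 (x, x),
      (p.1 ∈ (extChartAt I x) ⁻¹' (Metric.ball (extChartAt I x x) r ∩ range I) ∧
        p.1 ∈ (chartAt H x).source) ∧
      (p.2 ∈ (extChartAt I x) ⁻¹' (Metric.ball (extChartAt I x x) r ∩ range I) ∧
        p.2 ∈ (chartAt H x).source) := by
    rw [nhds_prod_eq]
    exact ((eventually_mem_set.2 A).and (eventually_mem_set.2 (chart_source_mem_nhds H x))).prod_mk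
      ((eventually_mem_set.2 A).and (eventually_mem_set.2 (chart_source_mem_nhds H x)))
  filter_upwards [hev] with p hp
  obtain ⟨⟨hy, h'y⟩, hz, h'z⟩ := hp
  set y := p.1 with hyd
  set z := p.2 with hzd
  let η := ContinuousAffineMap.lineMap (R := ℝ) (extChartAt I x y) (extChartAt I x z)
  set γ := (extChartAt I x).symm ∘ η
  have hη : Icc 0 1 ⊆ ⇑η ⁻¹' ((extChartAt I x).target ∩
        {y | ‖mfderivWithin 𝓘(ℝ, E) I (extChartAt I x).symm (range I) y‖ₑ < C}) := by
    simp only [← image_subset_iff, ContinuousAffineMap.coe_lineMap_eq,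
     ← segment_eq_image_lineMap, η]
    apply Subset.trans _ hr
    exact ((convex_ball _ _).inter I.convex_range).segment_subset hy hz
  simp only [preimage_inter, subset_inter_iff] at hη
  have η_smooth : ContMDiffOn 𝓘(ℝ) 𝓘(ℝ, E) 1 η (Icc 0 1) := by
    apply ContMDiff.contMDiffOn
    rw [contMDiff_iff_contDiff]
    exact ContinuousAffineMap.contDiff _
  have : riemannianEDist I y z ≤ pathELength I γ 0 1 := by
    apply riemannianEDist_le_pathELength _ _ _ zero_le_one
    · exact (contMDiffOn_extChartAt_symm x).comp η_smooth hη.1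
    · simp [γ, η, ContinuousAffineMap.coe_lineMap_eq, h'y]
    · simp [γ, η, ContinuousAffineMap.coe_lineMap_eq, h'z]
  apply this.trans
  rw [← lintegral_fderiv_lineMap_eq_edist, pathELength_eq_lintegral_mfderivWithin_Icc,
    ← lintegral_const_mul' _ _ ENNReal.coe_ne_top]
  apply setLIntegral_mono' measurableSet_Icc (fun t ht ↦ ?_)
  have : mfderivWithin 𝓘(ℝ) I γ (Icc 0 1) t =
      (mfderivWithin 𝓘(ℝ, E) I (extChartAt I x).symm (range I) (η t)) ∘L
        (mfderivWithin 𝓘(ℝ) 𝓘(ℝ, E) η (Icc 0 1) t) := by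
    apply mfderivWithin_comp
    · exact mdifferentiableWithinAt_extChartAt_symm (hη.1 ht)
    · exact η_smooth.mdifferentiableOn one_ne_zero t ht
    · exact hη.1.trans (preimage_mono (extChartAt_target_subset_range x))
    · rw [uniqueMDiffWithinAt_iff_uniqueDiffWithinAt]
      exact uniqueDiffOn_Icc zero_lt_one t ht
  have : mfderivWithin 𝓘(ℝ) I γ (Icc 0 1) t 1 =
      (mfderivWithin 𝓘(ℝ, E) I (extChartAt I x).symm (range I) (η t))
        (mfderivWithin 𝓘(ℝ) 𝓘(ℝ, E) η (Icc 0 1) t 1) := congr($this 1)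
  rw [this]
  apply (ContinuousLinearMap.le_opENorm _ _).trans
  gcongr
  · exact (hη.2 ht).le
  · simp only [mfderivWithin_eq_fderivWithin]
    exact le_of_eq rfl

end loc

section loc2

variable {E : Type*} [NormedAddCommGroup E] [NormedSpace ℝ E]
  {H : Type*} [TopologicalSpace H] {I : ModelWithCorners ℝ E H}
  {M : Type*} [PseudoEMetricSpace M] [ChartedSpace H M]
  [RiemannianBundle (fun (x : M) ↦ TangentSpace I x)]
  [IsManifold I 1 M] [IsContinuousRiemannianBundle E (fun (x : M) ↦ TangentSpace I x)]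
  [IsRiemannianManifold I M]

attribute [local instance] normedAddCommGroupTangentSpaceVectorSpace
attribute [local instance] normedSpaceTangentSpaceVectorSpace

variable (I)

set_option backward.isDefEq.respectTransparency false in
/-- The extended chart is Lipschitz near `x`. -/
lemma edist_extChartAt_le_two (x : M) :
    ∃ C > (0 : ℝ≥0), ∀ᶠ p : M × M in 𝓝 (x, x),
    edist (extChartAt I x p.1) (extChartAt I x p.2) ≤ C * edist p.1 p.2 := by
  rcases eventually_enorm_mfderiv_extChartAt_lt I x with ⟨C, C_pos, hC⟩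
  refine ⟨C, C_pos, ?_⟩
  obtain ⟨c, c_pos, hc⟩ : ∃ c > 0, Metric.eball x c ⊆
      {y | ‖mfderiv I 𝓘(ℝ, E) (extChartAt I x) y‖ₑ < C} ∩ (extChartAt I x).source :=
    EMetric.mem_nhds_iff.1 (inter_mem hC (extChartAt_source_mem_nhds (I := I) x))
  set δ : ℝ≥0∞ := min c 1 / 3 with hδ
  have δ_pos : 0 < δ := ENNReal.div_pos (by simpa using c_pos.ne') (by simp)
  have δ3 : δ + (δ + δ) ≤ c := by
    have : δ + (δ + δ) = min c 1 := by
      have h3 : δ + (δ + δ) = 3 * δ := by ring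
      rw [h3, hδ, ENNReal.mul_div_cancel (by norm_num) (by norm_num)]
    rw [this]; exact min_le_left _ _
  have hev : ∀ᶠ p : M × M in 𝓝 (x, x), p.1 ∈ Metric.eball x δ ∧ p.2 ∈ Metric.eball x δ := by
    rw [nhds_prod_eq]
    exact (eventually_mem_set.2 (Metric.eball_mem_nhds x δ_pos)).prod_mk
      (eventually_mem_set.2 (Metric.eball_mem_nhds x δ_pos))
  filter_upwards [hev] with p hp
  obtain ⟨hy, hz⟩ := hp
  set y := p.1 with hyd
  set z := p.2 with hzd
  by_contra hcon
  push Not at hcon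
  have hyz : edist y z < δ + δ := by
    refine (edist_triangle y x z).trans_lt (ENNReal.add_lt_add hy ?_)
    rw [edist_comm]; exact hz
  have h1 : edist y z < min (edist (extChartAt I x y) (extChartAt I x z) / C) (δ + δ) := by
    refine lt_min ?_ hyz
    rw [ENNReal.lt_div_iff_mul_lt (Or.inl (by simpa using C_pos.ne')) (Or.inl ENNReal.coe_ne_top),
      mul_comm]
    exact hcon
  obtain ⟨r, hr1, hr2⟩ := exists_between h1
  rw [IsRiemannianManifold.out (I := I) y z] at hr1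
  rcases exists_lt_locally_constant_of_riemannianEDist_lt hr1 zero_lt_one
    with ⟨γ, hγx, hγy, γ_smooth, hγ, -⟩
  have hin : ∀ t ∈ Icc (0 : ℝ) 1, γ t ∈ {y | ‖mfderiv I 𝓘(ℝ, E) (extChartAt I x) y‖ₑ < C} ∩
      (extChartAt I x).source := by
    intro t ht
    apply hc
    have h2 : edist y (γ t) ≤ pathELength I γ 0 1 := by
      rw [IsRiemannianManifold.out (I := I) y (γ t)]
      exact (riemannianEDist_le_pathELength γ_smooth.contMDiffOn hγx rfl ht.1).trans
        (pathELength_mono le_rfl ht.2)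
    have h3 : edist y (γ t) < δ + δ := (h2.trans_lt hγ).trans (hr2.trans_le (min_le_right _ _))
    have h4 : edist x (γ t) < c := by
      refine lt_of_lt_of_le ((edist_triangle x y (γ t)).trans_lt (ENNReal.add_lt_add ?_ h3)) δ3
      rw [edist_comm]; exact hy
    rw [Metric.mem_eball, edist_comm]; exact h4
  let γ' := extChartAt I x ∘ γ
  have hCM : ContMDiffOn 𝓘(ℝ) 𝓘(ℝ, E) 1 γ' (Icc 0 1) :=
    contMDiffOn_extChartAt.comp (I' := I) (t := (chartAt H x).source)
      γ_smooth.contMDiffOn (fun t' ht' ↦ by simpa using (hin t' ht').2)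
  have hfin : edist (extChartAt I x y) (extChartAt I x z) ≤ C * r := by
    have h5 : edist (extChartAt I x y) (extChartAt I x z) = ‖γ' 1 - γ' 0‖ₑ := by
      rw [edist_comm, edist_eq_enorm_sub]
      simp [γ', hγx, hγy]
    rw [h5]
    calc
      ‖γ' 1 - γ' 0‖ₑ
    _ ≤ ∫⁻ t' in Icc 0 1, ‖derivWithin γ' (Icc 0 1) t'‖ₑ := by
      apply enorm_sub_le_lintegral_derivWithin_Icc_of_contDiffOn_Icc _ zero_le_one
      rwa [← contMDiffOn_iff_contDiffOn]
    _ = ∫⁻ t' in Icc 0 1, ‖mfderivWithin 𝓘(ℝ) 𝓘(ℝ, E) γ' (Icc 0 1) t' 1‖ₑ := by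
      simp_rw [← fderivWithin_derivWithin, mfderivWithin_eq_fderivWithin]
      rfl
    _ ≤ ∫⁻ t' in Icc 0 1, C * ‖mfderivWithin 𝓘(ℝ) I γ (Icc 0 1) t' 1‖ₑ := by
      apply setLIntegral_mono' measurableSet_Icc (fun t' ht' ↦ ?_)
      have : mfderivWithin 𝓘(ℝ) 𝓘(ℝ, E) γ' (Icc 0 1) t' =
          (mfderiv I 𝓘(ℝ, E) (extChartAt I x) (γ t')) ∘L (mfderivWithin 𝓘(ℝ) I γ (Icc 0 1) t') := by
        apply mfderiv_comp_mfderivWithin
        · exact mdifferentiableAt_extChartAt (by simpa using (hin t' ht').2)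
        · exact (γ_smooth.mdifferentiable one_ne_zero).mdifferentiableOn _ ht'
        · rw [uniqueMDiffWithinAt_iff_uniqueDiffWithinAt]
          exact uniqueDiffOn_Icc zero_lt_one _ ht'
      have : mfderivWithin 𝓘(ℝ) 𝓘(ℝ, E) γ' (Icc 0 1) t' 1 =
          (mfderiv I 𝓘(ℝ, E) (extChartAt I x) (γ t')) (mfderivWithin 𝓘(ℝ) I γ (Icc 0 1) t' 1) :=
        congr($this 1)
      rw [this]
      apply (ContinuousLinearMap.le_opENorm _ _).trans
      gcongr
      exact (hin t' ht').1.le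
    _ = C * pathELength I γ 0 1 := by
      rw [lintegral_const_mul' _ _ ENNReal.coe_ne_top,
          pathELength_eq_lintegral_mfderivWithin_Icc]
    _ ≤ C * r := by
      gcongr
  have h6 : C * r < edist (extChartAt I x y) (extChartAt I x z) := by
    have := hr2.trans_le (min_le_left _ _)
    rwa [ENNReal.lt_div_iff_mul_lt (Or.inl (by simpa using C_pos.ne'))
      (Or.inl ENNReal.coe_ne_top), mul_comm] at this
  exact absurd hfin (not_le.2 h6)

end loc2

section haus

open Measure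

theorem haus_core (n : ℕ) (M : Type) [MetricSpace M] [ChartedSpace (EuclideanSpace ℝ (Fin n)) M]
    [RiemannianBundle (fun x : M => TangentSpace 𝓘(ℝ, EuclideanSpace ℝ (Fin n)) x)]
    [IsManifold 𝓘(ℝ, EuclideanSpace ℝ (Fin n)) 1 M]
    [IsContinuousRiemannianBundle (EuclideanSpace ℝ (Fin n))
      (fun x : M => TangentSpace 𝓘(ℝ, EuclideanSpace ℝ (Fin n)) x)]
    [IsRiemannianManifold 𝓘(ℝ, EuclideanSpace ℝ (Fin n)) M] [ProperSpace M]
    [MeasurableSpace M] [BorelSpace M] (x : M) (s : ℝ) (hs : 0 < s) :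
    0 < (Measure.hausdorffMeasure (n : ℝ) : Measure M) (Metric.closedBall x s) ∧
      (Measure.hausdorffMeasure (n : ℝ) : Measure M) (Metric.closedBall x s) < ⊤ := by
  have hH : IsAddHaarMeasure (Measure.hausdorffMeasure (n : ℝ) :
      Measure (EuclideanSpace ℝ (Fin n))) := by
    have h := isAddHaarMeasure_hausdorffMeasure (E := EuclideanSpace ℝ (Fin n))
    rwa [finrank_euclideanSpace_fin] at h
  have hn0 : (0 : ℝ) ≤ n := Nat.cast_nonneg n
  have key : ∀ x₀ : M, ∃ V ∈ 𝓝 x₀, ∃ C₁ C₂ : ℝ≥0, V ⊆ (extChartAt 𝓘(ℝ, EuclideanSpace ℝ (Fin n)) x₀).source ∧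
      (∀ y ∈ V, ∀ z ∈ V, edist y z ≤ C₁ * edist (extChartAt 𝓘(ℝ, EuclideanSpace ℝ (Fin n)) x₀ y)
        (extChartAt 𝓘(ℝ, EuclideanSpace ℝ (Fin n)) x₀ z)) ∧
      (∀ y ∈ V, ∀ z ∈ V, edist (extChartAt 𝓘(ℝ, EuclideanSpace ℝ (Fin n)) x₀ y)
        (extChartAt 𝓘(ℝ, EuclideanSpace ℝ (Fin n)) x₀ z) ≤ C₂ * edist y z) := by
    intro x₀
    obtain ⟨C₁, -, h1⟩ := riemannianEDist_le_two 𝓘(ℝ, EuclideanSpace ℝ (Fin n)) x₀
    obtain ⟨C₂, -, h2⟩ := edist_extChartAt_le_two 𝓘(ℝ, EuclideanSpace ℝ (Fin n)) x₀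
    have h12 := h1.and h2
    rw [nhds_prod_eq] at h12
    obtain ⟨t, ht, hts⟩ := mem_prod_self_iff.1 h12
    refine ⟨t ∩ (extChartAt 𝓘(ℝ, EuclideanSpace ℝ (Fin n)) x₀).source,
      inter_mem ht (extChartAt_source_mem_nhds x₀), C₁, C₂, inter_subset_right, ?_, ?_⟩
    · intro y hy z hz
      rw [IsRiemannianManifold.out (I := 𝓘(ℝ, EuclideanSpace ℝ (Fin n))) y z]
      exact (hts (mk_mem_prod hy.1 hz.1)).1
    · intro y hy z hz
      exact (hts (mk_mem_prod hy.1 hz.1)).2
  constructor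
  · obtain ⟨V, hV, C₁, C₂, hVs, h1, h2⟩ := key x
    set φ := extChartAt 𝓘(ℝ, EuclideanSpace ℝ (Fin n)) x with hφ
    set S := V ∩ Metric.closedBall x s with hS
    have hSn : S ∈ 𝓝 x := inter_mem hV (Metric.closedBall_mem_nhds x hs)
    have hL : LipschitzOnWith C₂ φ S := fun y hy z hz => h2 y hy.1 z hz.1
    have hle := hL.hausdorffMeasure_image_le hn0
    have hpos : 0 < (Measure.hausdorffMeasure (n : ℝ) : Measure (EuclideanSpace ℝ (Fin n)))
        (φ '' S) := measure_pos_of_mem_nhds _ (extChartAt_image_nhds_mem_nhds_of_boundaryless hSn)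
    have h3 : 0 < (Measure.hausdorffMeasure (n : ℝ) : Measure M) S := by
      rcases eq_or_ne ((Measure.hausdorffMeasure (n : ℝ) : Measure M) S) 0 with h | h
      · rw [h, mul_zero] at hle
        exact absurd hpos (not_lt.2 hle)
      · exact h.bot_lt
    exact h3.trans_le (measure_mono inter_subset_right)
  · refine (isCompact_closedBall x s).measure_lt_top_of_nhdsWithin fun x₀ _ => ?_
    obtain ⟨V, hV, C₁, C₂, hVs, h1, h2⟩ := key x₀
    set φ := extChartAt 𝓘(ℝ, EuclideanSpace ℝ (Fin n)) x₀ with hφ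
    have hc : ContinuousAt φ x₀ := continuousAt_extChartAt x₀
    have hB : φ ⁻¹' (Metric.ball (φ x₀) 1) ∈ 𝓝 x₀ := hc (Metric.ball_mem_nhds _ one_pos)
    set S := V ∩ φ ⁻¹' (Metric.ball (φ x₀) 1) with hS
    refine ⟨S, mem_nhdsWithin_of_mem_nhds (inter_mem hV hB), ?_⟩
    have him : φ.symm '' (φ '' S) = S := by
      rw [← image_comp]
      refine (image_congr fun y hy => ?_).trans (image_id _)
      exact φ.left_inv (hVs hy.1)
    have hL : LipschitzOnWith C₁ φ.symm (φ '' S) := by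
      rintro _ ⟨y, hy, rfl⟩ _ ⟨z, hz, rfl⟩
      rw [φ.left_inv (hVs hy.1), φ.left_inv (hVs hz.1)]
      exact h1 y hy.1 z hz.1
    have hle := hL.hausdorffMeasure_image_le hn0
    rw [him] at hle
    refine hle.trans_lt (ENNReal.mul_lt_top (ENNReal.rpow_lt_top_of_nonneg hn0
      ENNReal.coe_ne_top) ?_)
    refine (measure_mono (?_ : φ '' S ⊆ Metric.ball (φ x₀) 1)).trans_lt measure_ball_lt_top
    rintro _ ⟨y, hy, rfl⟩
    exact hy.2

theorem haus (n : ℕ) (M : Type) [MetricSpace M] [ChartedSpace (EuclideanSpace ℝ (Fin n)) M]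
    [RiemannianBundle (fun x : M => TangentSpace 𝓘(ℝ, EuclideanSpace ℝ (Fin n)) x)]
    [IsManifold 𝓘(ℝ, EuclideanSpace ℝ (Fin n)) ∞ M]
    [IsContMDiffRiemannianBundle 𝓘(ℝ, EuclideanSpace ℝ (Fin n)) ∞ (EuclideanSpace ℝ (Fin n))
      (fun x : M => TangentSpace 𝓘(ℝ, EuclideanSpace ℝ (Fin n)) x)]
    [IsRiemannianManifold 𝓘(ℝ, EuclideanSpace ℝ (Fin n)) M] [ProperSpace M]
    [MeasurableSpace M] [BorelSpace M] (x : M) (s : ℝ) (hs : 0 < s) :
    0 < (Measure.hausdorffMeasure (n : ℝ) : Measure M) (Metric.closedBall x s) ∧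
      (Measure.hausdorffMeasure (n : ℝ) : Measure M) (Metric.closedBall x s) < ⊤ := by
  have : IsManifold 𝓘(ℝ, EuclideanSpace ℝ (Fin n)) 1 M := IsManifold.of_le (n := ∞) (by simp)
  have : IsContinuousRiemannianBundle (EuclideanSpace ℝ (Fin n))
      (fun x : M => TangentSpace 𝓘(ℝ, EuclideanSpace ℝ (Fin n)) x) := by
    obtain ⟨g, hg, h⟩ := IsContMDiffRiemannianBundle.exists_contMDiff
      (IB := 𝓘(ℝ, EuclideanSpace ℝ (Fin n))) (n := ∞)
      (F := EuclideanSpace ℝ (Fin n))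
      (E := fun x : M => TangentSpace 𝓘(ℝ, EuclideanSpace ℝ (Fin n)) x)
    exact ⟨g, hg.continuous, h⟩
  exact haus_core n M x s hs

end haus

end Vale.Agent.P210.R2.H196
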